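import Vale.Agent.Lib.P074.Cube

namespace Vale.Agent.Lib.P074

open MeasureTheory Set

variable {d : ℕ}

lemma sq_sub_single (i : Fin d) (c : ℝ) (x : EuclideanSpace ℝ (Fin d)) :
    ‖x - EuclideanSpace.single i c‖ ^ 2 = ‖x‖ ^ 2 - 2 * c * x i + c ^ 2 := by
  have hn : ‖EuclideanSpace.single i c‖ = ‖c‖ := PiLp.norm_single 2 (fun _ : Fin d => ℝ) i c
  rw [norm_sub_sq_real, EuclideanSpace.inner_single_right, hn]
  simp
  ring

lemma construction (i0 i1 : Fin d) (h01 : i0 ≠ i1) (δ : ℝ) (hδ0 : 0 < δ) (hδ1 : δ ≤ 1) :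
    ∃ (μ ν : Measure (EuclideanSpace ℝ (Fin d)))
      (T S : EuclideanSpace ℝ (Fin d) → EuclideanSpace ℝ (Fin d)),
      ProbOn (Metric.closedBall 0 2) μ ∧ ProbOn (Metric.closedBall 0 2) ν ∧
      IsOptMap (unif (cube d)) μ T ∧ IsOptMap (unif (cube d)) ν S ∧
      ENNReal.ofReal (3 * δ / 256) ≤ ∫⁻ x, ‖T x - S x‖ₑ ^ 2 ∂(unif (cube d)) ∧
      (⨅ π : Measure (EuclideanSpace ℝ (Fin d) × EuclideanSpace ℝ (Fin d)),
        ⨅ (_ : π.map Prod.fst = μ ∧ π.map Prod.snd = ν), ∫⁻ z, ‖z.1 - z.2‖ₑ ^ 2 ∂π)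
        ≤ ENNReal.ofReal (δ ^ 3 / 16) ∧
      (⨅ π : Measure (EuclideanSpace ℝ (Fin d) × EuclideanSpace ℝ (Fin d)),
        ⨅ (_ : π.map Prod.fst = μ ∧ π.map Prod.snd = ν), ∫⁻ z, ‖z.1 - z.2‖ₑ ∂π)
        ≤ ENNReal.ofReal (δ ^ 2 / 16) := by
  rw [unif_cube]
  set ρ : Measure (EuclideanSpace ℝ (Fin d)) := volume.restrict (cube d) with hρ
  have : IsProbabilityMeasure ρ := ⟨by rw [hρ, Measure.restrict_apply_univ, vol_cube]⟩
  set y2 : EuclideanSpace ℝ (Fin d) := EuclideanSpace.single i1 (1:ℝ) with hy2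
  set z1 : EuclideanSpace ℝ (Fin d) := EuclideanSpace.single i0 δ with hz1
  set tν : ℝ := δ ^ 2 - 1 - 3 / 2 * δ with htν
  -- the two sublevel sets
  have hBset : {x : EuclideanSpace ℝ (Fin d) | ‖x - z1‖ ^ 2 - ‖x - y2‖ ^ 2 ≤ tν}
      = {x | x i1 ≤ δ * (x i0 - 3 / 4)} := by
    ext x
    simp only [mem_ofPred_eq, hz1, hy2, sq_sub_single, htν]
    constructor <;> intro h <;> nlinarith
  have hAset : ∀ a : ℝ, {x : EuclideanSpace ℝ (Fin d) | ‖x - 0‖ ^ 2 - ‖x - y2‖ ^ 2 ≤ 2 * a - 1}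
      = {x | x i1 ≤ a} := by
    intro a
    ext x
    simp only [mem_ofPred_eq, hy2, sq_sub_single, sub_zero]
    constructor <;> intro h <;> nlinarith
  set B : Set (EuclideanSpace ℝ (Fin d)) := {x | ‖x - z1‖ ^ 2 - ‖x - y2‖ ^ 2 ≤ tν} with hBdef
  have hBm : MeasurableSet B := measurableSet_sub z1 y2 tν
  have hρB : ρ B = volume (B ∩ cube d) := by rw [hρ, Measure.restrict_apply hBm]
  -- bounds on the mass of B
  have hB_lower : ENNReal.ofReal (δ / 64) ≤ ρ B := by
    rw [hρB]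
    have hsub : {x : EuclideanSpace ℝ (Fin d) | x ∈ cube d ∧ 7 / 8 ≤ x i0 ∧ x i1 ≤ δ / 8}
        ⊆ B ∩ cube d := by
      rintro x ⟨hx, h0, h1⟩
      refine ⟨?_, hx⟩
      rw [hBset]
      show x i1 ≤ δ * (x i0 - 3 / 4)
      nlinarith
    refine le_trans (le_of_eq ?_) (measure_mono hsub)
    rw [vol_box i0 i1 h01 (7 / 8) (δ / 8) (by norm_num) (by linarith),
      ← ENNReal.ofReal_mul (by norm_num)]
    congr 1
    ring
  have hB_upper : ρ B ≤ ENNReal.ofReal (δ / 16) := by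
    rw [hρB]
    have hsub : B ∩ cube d
        ⊆ {x : EuclideanSpace ℝ (Fin d) | x ∈ cube d ∧ 3 / 4 ≤ x i0 ∧ x i1 ≤ δ / 4} := by
      rintro x ⟨hxB, hx⟩
      rw [hBset] at hxB
      have hxB' : x i1 ≤ δ * (x i0 - 3 / 4) := hxB
      have h1 := (hx i1).1
      have h2 := (hx i0).2
      refine ⟨hx, ?_, ?_⟩
      · by_contra hcon
        push Not at hcon
        nlinarith
      · nlinarith
    refine le_trans (measure_mono hsub) (le_of_eq ?_)
    rw [vol_box i0 i1 h01 (3 / 4) (δ / 4) (by norm_num) (by linarith),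
      ← ENNReal.ofReal_mul (by norm_num)]
    congr 1
    ring
  set a : ℝ := (ρ B).toReal with ha
  have hBtop : ρ B ≠ ⊤ := measure_ne_top ρ B
  have hBa : ρ B = ENNReal.ofReal a := (ENNReal.ofReal_toReal hBtop).symm
  have ha_lower : δ / 64 ≤ a := by
    rw [hBa] at hB_lower
    exact (ENNReal.ofReal_le_ofReal_iff ENNReal.toReal_nonneg).mp hB_lower
  have ha_upper : a ≤ δ / 16 := by
    rw [hBa] at hB_upper
    exact (ENNReal.ofReal_le_ofReal_iff (by positivity)).mp hB_upper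
  have ha0 : 0 < a := by linarith
  have ha1 : a ≤ 1 := by linarith
  set A : Set (EuclideanSpace ℝ (Fin d)) := {x | ‖x - 0‖ ^ 2 - ‖x - y2‖ ^ 2 ≤ 2 * a - 1}
    with hAdef
  have hAm : MeasurableSet A := measurableSet_sub 0 y2 (2 * a - 1)
  have hρA : ρ A = ENNReal.ofReal a := by
    rw [hρ, Measure.restrict_apply hAm]
    have hset : A ∩ cube d
        = {x : EuclideanSpace ℝ (Fin d) | x ∈ cube d ∧ 0 ≤ x i0 ∧ x i1 ≤ a} := by
      ext x
      rw [hAdef, hAset a]
      constructor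
      · rintro ⟨h1, h2⟩
        exact ⟨h2, (h2 i0).1, h1⟩
      · rintro ⟨h1, _, h3⟩
        exact ⟨h3, h1⟩
    rw [hset, vol_box i0 i1 h01 0 a le_rfl ha1]
    simp
  have hρAB : ρ (A ∩ B) ≤ ENNReal.ofReal (a / 4) := by
    rw [hρ, Measure.restrict_apply (hAm.inter hBm)]
    have hsub : A ∩ B ∩ cube d
        ⊆ {x : EuclideanSpace ℝ (Fin d) | x ∈ cube d ∧ 3 / 4 ≤ x i0 ∧ x i1 ≤ a} := by
      rintro x ⟨⟨hxA, hxB⟩, hx⟩
      rw [hAdef, hAset a] at hxA
      rw [hBset] at hxB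
      have hxA' : x i1 ≤ a := hxA
      have hxB' : x i1 ≤ δ * (x i0 - 3 / 4) := hxB
      have h1 := (hx i1).1
      refine ⟨hx, ?_, hxA'⟩
      by_contra hcon
      push Not at hcon
      nlinarith
    refine le_trans (measure_mono hsub) (le_of_eq ?_)
    rw [vol_box i0 i1 h01 (3 / 4) a (by norm_num) ha1,
      ← ENNReal.ofReal_mul (by norm_num)]
    congr 1
    ring
  have hy2ne : (0 : EuclideanSpace ℝ (Fin d)) ≠ y2 := by
    intro h
    have := congrArg (fun v : EuclideanSpace ℝ (Fin d) => v i1) h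
    simp [hy2] at this
  have hz1ne : z1 ≠ y2 := by
    intro h
    have := congrArg (fun v : EuclideanSpace ℝ (Fin d) => v i1) h
    simp [hy2, hz1, h01.symm] at this
  have hy2norm : ‖y2‖ = 1 := by simp [hy2]
  have hz1norm : ‖z1‖ = δ := by simp [hz1, abs_of_pos hδ0]
  set T := twoMap (0 : EuclideanSpace ℝ (Fin d)) y2 (2 * a - 1) with hT
  set S := twoMap z1 y2 tν with hS
  have hTm : Measurable T := measurable_twoMap 0 y2 (2 * a - 1)
  have hSm : Measurable S := measurable_twoMap z1 y2 tν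
  have hballm : MeasurableSet (Metric.closedBall (0 : EuclideanSpace ℝ (Fin d)) 2)ᶜ :=
    Metric.isClosed_closedBall.measurableSet.compl
  refine ⟨ρ.map T, ρ.map S, T, S, ⟨Measure.isProbabilityMeasure_map hTm.aemeasurable, ?_⟩,
    ⟨Measure.isProbabilityMeasure_map hSm.aemeasurable, ?_⟩,
    isOptMap_twoMap ρ 0 y2 hy2ne _, isOptMap_twoMap ρ z1 y2 hz1ne _, ?_, ?_, ?_⟩
  · rw [Measure.map_apply hTm hballm]
    have : T ⁻¹' (Metric.closedBall (0 : EuclideanSpace ℝ (Fin d)) 2)ᶜ = ∅ := by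
      ext x
      simp only [mem_preimage, mem_compl_iff, Metric.mem_closedBall, dist_zero_right,
        mem_empty_iff_false, iff_false, not_not, hT, twoMap]
      split_ifs
      · simp
      · rw [hy2norm]; norm_num
    rw [this, measure_empty]
  · rw [Measure.map_apply hSm hballm]
    have : S ⁻¹' (Metric.closedBall (0 : EuclideanSpace ℝ (Fin d)) 2)ᶜ = ∅ := by
      ext x
      simp only [mem_preimage, mem_compl_iff, Metric.mem_closedBall, dist_zero_right,
        mem_empty_iff_false, iff_false, not_not, hS, twoMap]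
      split_ifs
      · rw [hz1norm]; linarith
      · rw [hy2norm]; norm_num
    rw [this, measure_empty]
  · -- lower bound of the L² distance
    have h1 : ρ (A \ B) ≤ ∫⁻ x, ‖T x - S x‖ₑ ^ 2 ∂ρ := by
      calc ρ (A \ B) = ∫⁻ x in A \ B, 1 ∂ρ := by simp
        _ = ∫⁻ x in A \ B, ‖T x - S x‖ₑ ^ 2 ∂ρ := by
          refine setLIntegral_congr_fun (hAm.diff hBm) ?_
          intro x hx
          have hxA : ‖x - 0‖ ^ 2 - ‖x - y2‖ ^ 2 ≤ 2 * a - 1 := hx.1
          have hxB : ¬ ‖x - z1‖ ^ 2 - ‖x - y2‖ ^ 2 ≤ tν := hx.2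
          have hTx : T x = 0 := by simp only [hT, twoMap, if_pos hxA]
          have hSx : S x = y2 := by simp only [hS, twoMap, if_neg hxB]
          show (1 : ENNReal) = ‖T x - S x‖ₑ ^ 2
          rw [hTx, hSx, enorm_sq_eq, zero_sub, norm_neg, hy2norm]
          simp
        _ ≤ ∫⁻ x, ‖T x - S x‖ₑ ^ 2 ∂ρ := setLIntegral_le_lintegral _ _
    refine le_trans ?_ h1
    have h2 : ρ A - ρ (A ∩ B) ≤ ρ (A \ B) := by
      rw [← sdiff_self_inter]
      exact le_measure_sdiff
    refine le_trans ?_ h2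
    rw [hρA]
    refine le_trans ?_ (tsub_le_tsub_left hρAB _)
    rw [← ENNReal.ofReal_sub _ (by positivity)]
    apply ENNReal.ofReal_le_ofReal
    linarith
  · -- upper bound of the Wasserstein distance
    set m : ENNReal := ENNReal.ofReal a with hm
    have hμ : ρ.map T = m • Measure.dirac 0 + (1 - m) • Measure.dirac y2 := by
      rw [hT, map_twoMap, prob_compl_eq_one_sub hAm, hρA]
    have hν : ρ.map S = m • Measure.dirac z1 + (1 - m) • Measure.dirac y2 := by
      rw [hS, map_twoMap, prob_compl_eq_one_sub hBm, hBa]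
    refine iInf_le_of_le (m • Measure.dirac ((0 : EuclideanSpace ℝ (Fin d)), z1)
      + (1 - m) • Measure.dirac (y2, y2)) (iInf_le_of_le ⟨?_, ?_⟩ ?_)
    · rw [hμ, Measure.map_add _ _ measurable_fst, Measure.map_smul, Measure.map_smul,
        Measure.map_dirac, Measure.map_dirac]
    · rw [hν, Measure.map_add _ _ measurable_snd, Measure.map_smul, Measure.map_smul,
        Measure.map_dirac, Measure.map_dirac]
    · rw [lintegral_add_measure, lintegral_smul_measure, lintegral_smul_measure,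
        lintegral_dirac, lintegral_dirac]
      simp only [sub_self, zero_sub, enorm_neg, enorm_zero]
      rw [enorm_sq_eq, hz1norm]
      simp only [smul_eq_mul, ne_eq, OfNat.ofNat_ne_zero, not_false_eq_true, zero_pow, mul_zero,
        add_zero]
      rw [hm, ← ENNReal.ofReal_mul ha0.le]
      apply ENNReal.ofReal_le_ofReal
      nlinarith [sq_nonneg δ]
  · -- upper bound of the 1-Wasserstein cost
    set m : ENNReal := ENNReal.ofReal a with hm
    have hμ : ρ.map T = m • Measure.dirac 0 + (1 - m) • Measure.dirac y2 := by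
      rw [hT, map_twoMap, prob_compl_eq_one_sub hAm, hρA]
    have hν : ρ.map S = m • Measure.dirac z1 + (1 - m) • Measure.dirac y2 := by
      rw [hS, map_twoMap, prob_compl_eq_one_sub hBm, hBa]
    refine iInf_le_of_le (m • Measure.dirac ((0 : EuclideanSpace ℝ (Fin d)), z1)
      + (1 - m) • Measure.dirac (y2, y2)) (iInf_le_of_le ⟨?_, ?_⟩ ?_)
    · rw [hμ, Measure.map_add _ _ measurable_fst, Measure.map_smul, Measure.map_smul,
        Measure.map_dirac, Measure.map_dirac]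
    · rw [hν, Measure.map_add _ _ measurable_snd, Measure.map_smul, Measure.map_smul,
        Measure.map_dirac, Measure.map_dirac]
    · rw [lintegral_add_measure, lintegral_smul_measure, lintegral_smul_measure,
        lintegral_dirac, lintegral_dirac]
      simp only [sub_self, zero_sub, enorm_neg, enorm_zero]
      rw [← ofReal_norm, hz1norm]
      simp only [smul_eq_mul, mul_zero, add_zero]
      rw [hm, ← ENNReal.ofReal_mul ha0.le]
      apply ENNReal.ofReal_le_ofReal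
      nlinarith [sq_nonneg δ]

end Vale.Agent.Lib.P074
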