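import Vale.Agent.Lib.P074.TwoAtom

namespace Vale.Agent.Lib.P074

open MeasureTheory Set

variable {d : ℕ}

/-- The unit cube `[0,1]^d`. -/
def cube (d : ℕ) : Set (EuclideanSpace ℝ (Fin d)) := {x | ∀ i, x i ∈ Icc (0:ℝ) 1}

lemma vol_box_gen (lo hi : Fin d → ℝ) :
    volume {x : EuclideanSpace ℝ (Fin d) | ∀ i, x i ∈ Icc (lo i) (hi i)}
      = ∏ i, ENNReal.ofReal (hi i - lo i) := by
  have hmp := EuclideanSpace.volume_preserving_symm_measurableEquiv_toLp (Fin d)
  have hset : {x : EuclideanSpace ℝ (Fin d) | ∀ i, x i ∈ Icc (lo i) (hi i)}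
      = (MeasurableEquiv.toLp 2 (Fin d → ℝ)).symm ⁻¹' (Icc lo hi) := by
    ext x
    simp [Pi.le_def, forall_and]
  rw [hset, hmp.measure_preimage measurableSet_Icc.nullMeasurableSet, Real.volume_Icc_pi]

lemma vol_box (i0 i1 : Fin d) (h01 : i0 ≠ i1) (u v : ℝ) (hu : 0 ≤ u) (hv : v ≤ 1) :
    volume {x : EuclideanSpace ℝ (Fin d) | x ∈ cube d ∧ u ≤ x i0 ∧ x i1 ≤ v}
      = ENNReal.ofReal (1 - u) * ENNReal.ofReal v := by
  have hset : {x : EuclideanSpace ℝ (Fin d) | x ∈ cube d ∧ u ≤ x i0 ∧ x i1 ≤ v}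
      = {x : EuclideanSpace ℝ (Fin d) | ∀ i,
          x i ∈ Icc (if i = i0 then u else 0) (if i = i1 then v else 1)} := by
    ext x
    simp only [cube, mem_ofPred_eq, mem_Icc]
    constructor
    · rintro ⟨hx, h0, h1⟩ i
      constructor
      · split_ifs with h
        · rw [h]; exact h0
        · exact (hx i).1
      · split_ifs with h
        · rw [h]; exact h1
        · exact (hx i).2
    · intro h
      refine ⟨fun i => ⟨?_, ?_⟩, ?_, ?_⟩
      · have := (h i).1
        split_ifs at this <;> linarith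
      · have := (h i).2
        split_ifs at this <;> linarith
      · have := (h i0).1
        simpa using this
      · have := (h i1).2
        simpa using this
  rw [hset, vol_box_gen]
  rw [Finset.prod_eq_mul i0 i1 h01]
  · simp [h01, h01.symm]
  · intro c _ hc
    simp [hc.1, hc.2]
  · intro h; exact absurd (Finset.mem_univ _) h
  · intro h; exact absurd (Finset.mem_univ _) h


lemma cube_eq_preimage (d : ℕ) :
    cube d = (EuclideanSpace.equiv (Fin d) ℝ).toHomeomorph ⁻¹'
      (Set.pi univ fun _ => Icc (0:ℝ) 1) := by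
  ext x
  simp [cube, Pi.le_def, forall_and]

lemma isCompact_cube (d : ℕ) : IsCompact (cube d) := by
  rw [cube_eq_preimage]
  exact (EuclideanSpace.equiv (Fin d) ℝ).toHomeomorph.isCompact_preimage.mpr
    (isCompact_univ_pi fun _ => isCompact_Icc)

lemma convex_cube (d : ℕ) : Convex ℝ (cube d) := by
  intro x hx y hy a b ha hb hab i
  have hx' := hx i
  have hy' := hy i
  simp only [mem_Icc] at hx' hy' ⊢
  have e : (a • x + b • y) i = a * x i + b * y i := by simp
  rw [e]
  constructor
  · nlinarith [mul_nonneg ha hx'.1, mul_nonneg hb hy'.1]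
  · nlinarith [mul_le_mul_of_nonneg_left hx'.2 ha, mul_le_mul_of_nonneg_left hy'.2 hb]

lemma interior_cube_nonempty (d : ℕ) : (interior (cube d)).Nonempty := by
  rw [cube_eq_preimage]
  rw [← (EuclideanSpace.equiv (Fin d) ℝ).toHomeomorph.preimage_interior]
  rw [interior_pi_set finite_univ]
  refine ⟨(EuclideanSpace.equiv (Fin d) ℝ).symm (fun _ => (1/2 : ℝ)), ?_⟩
  simp only [mem_preimage]
  intro i _
  simp only [interior_Icc]
  simp
  norm_num

lemma measurableSet_cube (d : ℕ) : MeasurableSet (cube d) :=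
  (isCompact_cube d).isClosed.measurableSet

lemma vol_cube (d : ℕ) : volume (cube d) = 1 := by
  have h := vol_box_gen (d := d) (fun _ => 0) (fun _ => 1)
  simp at h
  exact h

lemma unif_cube (d : ℕ) : unif (cube d) = volume.restrict (cube d) := by
  unfold unif
  rw [vol_cube, inv_one, one_smul]

end Vale.Agent.Lib.P074
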