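import Mathlib

/-!
# P074: stability exponent of quadratic optimal transport maps (definitions)

All objects live on `EuclideanSpace ℝ (Fin d)` with its Euclidean norm, its Borel
sigma-algebra and its Lebesgue measure `volume`.
-/

namespace Vale.Agent.Lib.P074

open MeasureTheory

/-- The uniform probability measure `|K|⁻¹ 1_K dx` on a set `K` of the Euclidean space. -/
noncomputable def unif {d : ℕ} (K : Set (EuclideanSpace ℝ (Fin d))) :
    Measure (EuclideanSpace ℝ (Fin d)) :=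
  (volume K)⁻¹ • (volume.restrict K)

/-- `ProbOn Y μ`: `μ` is a Borel probability measure supported in `Y`
(that is, `μ` gives no mass to the complement of `Y`). -/
def ProbOn {d : ℕ} (Y : Set (EuclideanSpace ℝ (Fin d)))
    (μ : Measure (EuclideanSpace ℝ (Fin d))) : Prop :=
  IsProbabilityMeasure μ ∧ μ Yᶜ = 0

/-- The quadratic transport cost `∫ |x - T x|² dρ(x)` of a map `T`, as an extended
nonnegative real. -/
noncomputable def cost {d : ℕ} (ρ : Measure (EuclideanSpace ℝ (Fin d)))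
    (T : EuclideanSpace ℝ (Fin d) → EuclideanSpace ℝ (Fin d)) : ENNReal :=
  ∫⁻ x, ‖x - T x‖ₑ ^ 2 ∂ρ

/-- `IsOptMap ρ μ T`: `T` is a quadratic optimal transport map from `ρ` to `μ`, i.e. a Borel
map with `T_# ρ = μ` minimising `∫ |x - T x|² dρ` among all Borel maps `S` with `S_# ρ = μ`. -/
def IsOptMap {d : ℕ} (ρ μ : Measure (EuclideanSpace ℝ (Fin d)))
    (T : EuclideanSpace ℝ (Fin d) → EuclideanSpace ℝ (Fin d)) : Prop :=
  Measurable T ∧ ρ.map T = μ ∧
    ∀ S : EuclideanSpace ℝ (Fin d) → EuclideanSpace ℝ (Fin d),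
      Measurable S → ρ.map S = μ → cost ρ T ≤ cost ρ S

/-- The quadratic Wasserstein distance
`W₂(μ, ν) = inf_π (∫ |y - z|² dπ(y, z))^(1/2)`, the infimum over all couplings `π` of
`μ` and `ν` (measures on the product with marginals `μ` and `ν`). -/
noncomputable def W2 {d : ℕ} (μ ν : Measure (EuclideanSpace ℝ (Fin d))) : ENNReal :=
  (⨅ π : Measure (EuclideanSpace ℝ (Fin d) × EuclideanSpace ℝ (Fin d)),
    ⨅ (_ : π.map Prod.fst = μ ∧ π.map Prod.snd = ν), ∫⁻ z, ‖z.1 - z.2‖ₑ ^ 2 ∂π) ^ (1 / 2 : ℝ)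

/-- The distance `‖T - S‖_{L²(ρ)} = (∫ |T x - S x|² dρ(x))^(1/2)` between two maps. -/
noncomputable def L2dist {d : ℕ} (ρ : Measure (EuclideanSpace ℝ (Fin d)))
    (T S : EuclideanSpace ℝ (Fin d) → EuclideanSpace ℝ (Fin d)) : ENNReal :=
  (∫⁻ x, ‖T x - S x‖ₑ ^ 2 ∂ρ) ^ (1 / 2 : ℝ)

/-- `Admissible d α`: the exponent `α` is admissible in dimension `d`: for every compact convex
`K ⊆ ℝ^d` with nonempty interior and every nonempty compact `Y ⊆ ℝ^d` there is a finite constant
`C` such that `‖T_μ - T_ν‖_{L²(ρ)} ≤ C W₂(μ, ν)^α` for all Borel probability measures `μ, ν`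
supported in `Y`, where `ρ` is the uniform probability measure on `K` and `T_μ`, `T_ν` are
(any) quadratic optimal transport maps from `ρ` to `μ` and to `ν`. -/
def Admissible (d : ℕ) (α : ℝ) : Prop :=
  ∀ K : Set (EuclideanSpace ℝ (Fin d)), IsCompact K → Convex ℝ K → (interior K).Nonempty →
    ∀ Y : Set (EuclideanSpace ℝ (Fin d)), IsCompact Y → Y.Nonempty →
      ∃ C : NNReal, ∀ μ ν : Measure (EuclideanSpace ℝ (Fin d)), ProbOn Y μ → ProbOn Y ν →
        ∀ T S : EuclideanSpace ℝ (Fin d) → EuclideanSpace ℝ (Fin d),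
          IsOptMap (unif K) μ T → IsOptMap (unif K) ν S →
            L2dist (unif K) T S ≤ (C : ENNReal) * W2 μ ν ^ α

end Vale.Agent.Lib.P074
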