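import Vale.Agent.Lib.P074.Defs

/-!
# P074: the `W₁` variant of admissibility (definitions)
-/

namespace Vale.Agent.Lib.P074

open MeasureTheory

/-- The 1-Wasserstein distance `W₁(μ, ν) = inf_π ∫ |y - z| dπ(y, z)`, the infimum over all
couplings `π` of `μ` and `ν` (measures on the product with marginals `μ` and `ν`). -/
noncomputable def W1 {d : ℕ} (μ ν : Measure (EuclideanSpace ℝ (Fin d))) : ENNReal :=
  ⨅ π : Measure (EuclideanSpace ℝ (Fin d) × EuclideanSpace ℝ (Fin d)),
    ⨅ (_ : π.map Prod.fst = μ ∧ π.map Prod.snd = ν), ∫⁻ z, ‖z.1 - z.2‖ₑ ∂π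

/-- `AdmissibleW1 d β`: the analogue of `Admissible d β` with `W₁` in place of `W₂`: for every
compact convex `K ⊆ ℝ^d` with nonempty interior and every nonempty compact `Y ⊆ ℝ^d` there is a
finite constant `C` such that `‖T_μ - T_ν‖_{L²(ρ)} ≤ C W₁(μ, ν)^β` for all Borel probability
measures `μ, ν` supported in `Y`, where `ρ` is the uniform probability measure on `K` and `T_μ`,
`T_ν` are (any) quadratic optimal transport maps from `ρ` to `μ` and to `ν`. -/
def AdmissibleW1 (d : ℕ) (β : ℝ) : Prop :=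
  ∀ K : Set (EuclideanSpace ℝ (Fin d)), IsCompact K → Convex ℝ K → (interior K).Nonempty →
    ∀ Y : Set (EuclideanSpace ℝ (Fin d)), IsCompact Y → Y.Nonempty →
      ∃ C : NNReal, ∀ μ ν : Measure (EuclideanSpace ℝ (Fin d)), ProbOn Y μ → ProbOn Y ν →
        ∀ T S : EuclideanSpace ℝ (Fin d) → EuclideanSpace ℝ (Fin d),
          IsOptMap (unif K) μ T → IsOptMap (unif K) ν S →
            L2dist (unif K) T S ≤ (C : ENNReal) * W1 μ ν ^ β

end Vale.Agent.Lib.P074
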