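import Vale.Agent.Lib.P074.Main
import Vale.Agent.Lib.P074.DefsW1

namespace Vale.Agent.Lib.P074

open MeasureTheory Set

lemma real_lemma_W1 (C : ℝ) (hC : 0 ≤ C) (β : ℝ) (hβ : 1 / 4 < β) :
    ∃ δ : ℝ, 0 < δ ∧ δ ≤ 1 ∧
      C * (δ ^ 2 / 16) ^ β < (3 * δ / 256) ^ (1 / 2 : ℝ) := by
  set γ : ℝ := 2 * β - 1 / 2 with hγ
  have hγ0 : 0 < γ := by rw [hγ]; linarith
  set c₀ : ℝ := (3 / 256 : ℝ) ^ (1 / 2 : ℝ) with hc₀
  have hc₀pos : 0 < c₀ := by positivity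
  set ε : ℝ := c₀ / (C + 1) with hε
  have hεpos : 0 < ε := by positivity
  refine ⟨min 1 (ε ^ (1 / γ)), lt_min one_pos (Real.rpow_pos_of_pos hεpos _), min_le_left _ _, ?_⟩
  set δ : ℝ := min 1 (ε ^ (1 / γ)) with hδ
  have hδ0 : 0 < δ := lt_min one_pos (Real.rpow_pos_of_pos hεpos _)
  have hδ1 : δ ≤ 1 := min_le_left _ _
  have h1 : δ ^ γ ≤ ε := by
    calc δ ^ γ ≤ (ε ^ (1 / γ)) ^ γ := Real.rpow_le_rpow hδ0.le (min_le_right _ _) hγ0.le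
      _ = ε := by rw [← Real.rpow_mul hεpos.le, one_div, inv_mul_cancel₀ hγ0.ne', Real.rpow_one]
  have h2 : (δ ^ 2 / 16) ^ β ≤ δ ^ (1 / 2 : ℝ) * δ ^ γ := by
    calc (δ ^ 2 / 16) ^ β ≤ (δ ^ 2) ^ β := by
          apply Real.rpow_le_rpow (by positivity) _ (by linarith)
          have : 0 ≤ δ ^ 2 := by positivity
          linarith
      _ = δ ^ (1 / 2 : ℝ) * δ ^ γ := by
          rw [← Real.rpow_natCast, ← Real.rpow_mul hδ0.le, ← Real.rpow_add hδ0]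
          congr 1
          rw [hγ]; push_cast; ring
  have h3 : (3 * δ / 256) ^ (1 / 2 : ℝ) = c₀ * δ ^ (1 / 2 : ℝ) := by
    rw [hc₀, ← Real.mul_rpow (by norm_num) hδ0.le]
    congr 1
    ring
  rw [h3]
  have hδhalf : 0 < δ ^ (1 / 2 : ℝ) := Real.rpow_pos_of_pos hδ0 _
  calc C * (δ ^ 2 / 16) ^ β
      ≤ C * (δ ^ (1 / 2 : ℝ) * δ ^ γ) := mul_le_mul_of_nonneg_left h2 hC
    _ ≤ C * (δ ^ (1 / 2 : ℝ) * ε) :=
        mul_le_mul_of_nonneg_left (mul_le_mul_of_nonneg_left h1 hδhalf.le) hC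
    _ < c₀ * δ ^ (1 / 2 : ℝ) := by
        rw [hε]
        have e : C * (δ ^ (1 / 2 : ℝ) * (c₀ / (C + 1)))
            = (C / (C + 1)) * (c₀ * δ ^ (1 / 2 : ℝ)) := by
          field_simp
        rw [e]
        have hfrac : C / (C + 1) < 1 := by
          rw [div_lt_one (by linarith)]; linarith
        nlinarith [mul_pos hc₀pos hδhalf]

theorem not_admissibleW1 (d : ℕ) (hd : 2 ≤ d) (β : ℝ) (hβ : 1 / 4 < β) :
    ¬ AdmissibleW1 d β := by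
  intro hadm
  obtain ⟨C, hC⟩ := hadm (cube d) (isCompact_cube d) (convex_cube d) (interior_cube_nonempty d)
    (Metric.closedBall 0 2) (isCompact_closedBall 0 2) ⟨0, by simp⟩
  obtain ⟨δ, hδ0, hδ1, hδ⟩ := real_lemma_W1 (C : ℝ) C.coe_nonneg β hβ
  have h01 : (⟨0, by omega⟩ : Fin d) ≠ ⟨1, by omega⟩ := by
    intro h
    simp [Fin.ext_iff] at h
  obtain ⟨μ, ν, T, S, hμ, hν, hT, hS, hL, -, hW⟩ := construction _ _ h01 δ hδ0 hδ1
  have h := hC μ ν hμ hν T S hT hS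
  have h1 : ENNReal.ofReal (3 * δ / 256) ^ (1 / 2 : ℝ) ≤ L2dist (unif (cube d)) T S :=
    ENNReal.rpow_le_rpow hL (by norm_num)
  have h3 : ENNReal.ofReal (3 * δ / 256) ^ (1 / 2 : ℝ)
      ≤ (C : ENNReal) * (ENNReal.ofReal (δ ^ 2 / 16)) ^ β :=
    h1.trans (h.trans (mul_le_mul_right (ENNReal.rpow_le_rpow hW (by linarith)) _))
  rw [ENNReal.ofReal_rpow_of_nonneg (by positivity) (by norm_num),
    ENNReal.ofReal_rpow_of_nonneg (by positivity) (by linarith),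
    ← ENNReal.ofReal_coe_nnreal, ← ENNReal.ofReal_mul C.coe_nonneg,
    ENNReal.ofReal_le_ofReal_iff (by positivity)] at h3
  linarith

end Vale.Agent.Lib.P074
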