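import Vale.Agent.Lib.P074.Main

namespace Vale.Agent.Lib.P074

open MeasureTheory Set

/-- Quantitative form of the cube example. -/
theorem cube_quantitative (d : ℕ) (hd : 2 ≤ d) (δ : ℝ) (hδ0 : 0 < δ) (hδ1 : δ ≤ 1) :
    ∃ (μ ν : Measure (EuclideanSpace ℝ (Fin d)))
      (T S : EuclideanSpace ℝ (Fin d) → EuclideanSpace ℝ (Fin d)),
      ProbOn (Metric.closedBall 0 2) μ ∧ ProbOn (Metric.closedBall 0 2) ν ∧
      IsOptMap (unif {x : EuclideanSpace ℝ (Fin d) | ∀ i, x i ∈ Icc (0:ℝ) 1}) μ T ∧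
      IsOptMap (unif {x : EuclideanSpace ℝ (Fin d) | ∀ i, x i ∈ Icc (0:ℝ) 1}) ν S ∧
      W2 μ ν ≤ ENNReal.ofReal (δ ^ (3 / 2 : ℝ) / 4) ∧
      ENNReal.ofReal (δ ^ (1 / 2 : ℝ) / 16)
        ≤ L2dist (unif {x : EuclideanSpace ℝ (Fin d) | ∀ i, x i ∈ Icc (0:ℝ) 1}) T S := by
  have h01 : (⟨0, by omega⟩ : Fin d) ≠ ⟨1, by omega⟩ := by
    intro h
    simp [Fin.ext_iff] at h
  obtain ⟨μ, ν, T, S, hμ, hν, hT, hS, hL, hW, -⟩ := construction _ _ h01 δ hδ0 hδ1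
  refine ⟨μ, ν, T, S, hμ, hν, hT, hS, ?_, ?_⟩
  · have h2 : W2 μ ν ≤ ENNReal.ofReal (δ ^ 3 / 16) ^ (1 / 2 : ℝ) :=
      ENNReal.rpow_le_rpow hW (by norm_num)
    refine h2.trans (le_of_eq ?_)
    rw [ENNReal.ofReal_rpow_of_nonneg (by positivity) (by norm_num)]
    congr 1
    rw [Real.div_rpow (by positivity) (by norm_num), ← Real.rpow_natCast,
      ← Real.rpow_mul hδ0.le]
    have h16 : (16 : ℝ) ^ (1 / 2 : ℝ) = 4 := by
      rw [show (16 : ℝ) = 4 ^ (2 : ℝ) by norm_num, ← Real.rpow_mul (by norm_num)]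
      norm_num
    rw [h16]
    norm_num
  · have h1 : ENNReal.ofReal (3 * δ / 256) ^ (1 / 2 : ℝ) ≤ L2dist (unif (cube d)) T S :=
      ENNReal.rpow_le_rpow hL (by norm_num)
    refine le_trans ?_ h1
    rw [ENNReal.ofReal_rpow_of_nonneg (by positivity) (by norm_num)]
    apply ENNReal.ofReal_le_ofReal
    have h256 : (256 : ℝ) ^ (1 / 2 : ℝ) = 16 := by
      rw [show (256 : ℝ) = 16 ^ (2 : ℝ) by norm_num, ← Real.rpow_mul (by norm_num)]
      norm_num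
    have e : δ ^ (1 / 2 : ℝ) / 16 = (δ / 256) ^ (1 / 2 : ℝ) := by
      rw [Real.div_rpow hδ0.le (by norm_num), h256]
    rw [e]
    apply Real.rpow_le_rpow (by positivity) _ (by norm_num)
    linarith

end Vale.Agent.Lib.P074
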