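import Vale.Agent.Lib.P074.Defs

namespace Vale.Agent.Lib.P074

open MeasureTheory Set

variable {d : ℕ}

lemma enorm_sq_eq (v : EuclideanSpace ℝ (Fin d)) : ‖v‖ₑ ^ 2 = ENNReal.ofReal (‖v‖ ^ 2) := by
  rw [ENNReal.ofReal_pow (norm_nonneg v), ofReal_norm]

/-- Weak Kantorovich duality for maps. -/
lemma cost_le_of_dual (ρ : Measure (EuclideanSpace ℝ (Fin d))) [IsProbabilityMeasure ρ]
    (T₀ S : EuclideanSpace ℝ (Fin d) → EuclideanSpace ℝ (Fin d))
    (hT₀ : Measurable T₀) (hS : Measurable S) (hmap : ρ.map S = ρ.map T₀)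
    (φ ψ : EuclideanSpace ℝ (Fin d) → ℝ) (hφ : Measurable φ) (hψ : Measurable ψ)
    (M : ℝ) (hM : 0 ≤ M)
    (hφM : ∀ x, 0 ≤ φ x + M) (hψM : ∀ y, 0 ≤ ψ y + M)
    (hle : ∀ᵐ x ∂ρ, φ x + ψ (S x) ≤ ‖x - S x‖ ^ 2)
    (heq : ∀ x, φ x + ψ (T₀ x) = ‖x - T₀ x‖ ^ 2) :
    cost ρ T₀ ≤ cost ρ S := by
  have key : ∀ (R : EuclideanSpace ℝ (Fin d) → EuclideanSpace ℝ (Fin d)), Measurable R →
      ∫⁻ x, (ENNReal.ofReal (φ x + M) + ENNReal.ofReal (ψ (R x) + M)) ∂ρ
        = ∫⁻ x, ENNReal.ofReal (φ x + M) ∂ρ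
          + ∫⁻ y, ENNReal.ofReal (ψ y + M) ∂(ρ.map R) := by
    intro R hR
    rw [lintegral_add_left (hφ.add_const M).ennreal_ofReal]
    congr 1
    rw [lintegral_map (hψ.add_const M).ennreal_ofReal hR]
  have hconst : ∀ (R : EuclideanSpace ℝ (Fin d) → EuclideanSpace ℝ (Fin d)), Measurable R →
      cost ρ R + ENNReal.ofReal (2 * M)
        = ∫⁻ x, (‖x - R x‖ₑ ^ 2 + ENNReal.ofReal (2 * M)) ∂ρ := by
    intro R hR
    unfold cost
    rw [lintegral_add_right _ measurable_const, lintegral_const, measure_univ, mul_one]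
  have h1 : cost ρ T₀ + ENNReal.ofReal (2 * M)
      = ∫⁻ x, (ENNReal.ofReal (φ x + M) + ENNReal.ofReal (ψ (T₀ x) + M)) ∂ρ := by
    rw [hconst T₀ hT₀]
    refine lintegral_congr (fun x => ?_)
    rw [enorm_sq_eq, ← ENNReal.ofReal_add (sq_nonneg _) (by positivity),
      ← ENNReal.ofReal_add (hφM x) (hψM _), ← heq x]
    congr 1
    ring
  have h2 : ∫⁻ x, (ENNReal.ofReal (φ x + M) + ENNReal.ofReal (ψ (S x) + M)) ∂ρ
      ≤ cost ρ S + ENNReal.ofReal (2 * M) := by
    rw [hconst S hS]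
    refine lintegral_mono_ae ?_
    filter_upwards [hle] with x hx
    rw [enorm_sq_eq, ← ENNReal.ofReal_add (sq_nonneg _) (by positivity),
      ← ENNReal.ofReal_add (hφM x) (hψM _)]
    apply ENNReal.ofReal_le_ofReal
    linarith
  have h3 : cost ρ T₀ + ENNReal.ofReal (2 * M) ≤ cost ρ S + ENNReal.ofReal (2 * M) := by
    rw [h1, key T₀ hT₀, ← hmap, ← key S hS]
    exact h2
  exact (ENNReal.add_le_add_iff_right ENNReal.ofReal_ne_top).mp h3


/-- The two-valued map sending the sublevel set `{‖x - p‖² - ‖x - q‖² ≤ t}` to `p` and its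
complement to `q`. -/
noncomputable def twoMap (p q : EuclideanSpace ℝ (Fin d)) (t : ℝ) :
    EuclideanSpace ℝ (Fin d) → EuclideanSpace ℝ (Fin d) :=
  fun x => if ‖x - p‖ ^ 2 - ‖x - q‖ ^ 2 ≤ t then p else q

lemma measurableSet_sub (p q : EuclideanSpace ℝ (Fin d)) (t : ℝ) :
    MeasurableSet {x : EuclideanSpace ℝ (Fin d) | ‖x - p‖ ^ 2 - ‖x - q‖ ^ 2 ≤ t} :=
  measurableSet_le (by fun_prop) measurable_const

lemma measurable_twoMap (p q : EuclideanSpace ℝ (Fin d)) (t : ℝ) : Measurable (twoMap p q t) :=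
  Measurable.ite (measurableSet_sub p q t) measurable_const measurable_const

lemma isOptMap_twoMap (ρ : Measure (EuclideanSpace ℝ (Fin d))) [IsProbabilityMeasure ρ]
    (p q : EuclideanSpace ℝ (Fin d)) (hpq : p ≠ q) (t : ℝ) :
    IsOptMap ρ (ρ.map (twoMap p q t)) (twoMap p q t) := by
  refine ⟨measurable_twoMap p q t, rfl, ?_⟩
  intro S hS hmap
  have hae : ∀ᵐ x ∂ρ, S x = p ∨ S x = q := by
    have hms : MeasurableSet ({p, q}ᶜ : Set (EuclideanSpace ℝ (Fin d))) :=
      ((measurableSet_singleton q).insert p).compl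
    have h0 : ρ.map S {p, q}ᶜ = 0 := by
      rw [hmap, Measure.map_apply (measurable_twoMap p q t) hms]
      have : twoMap p q t ⁻¹' {p, q}ᶜ = ∅ := by
        ext x
        simp only [twoMap, mem_preimage, mem_compl_iff, mem_insert_iff, mem_singleton_iff,
          mem_empty_iff_false, iff_false, not_not]
        split_ifs <;> simp
      rw [this, measure_empty]
    rw [Measure.map_apply hS hms] at h0
    filter_upwards [measure_eq_zero_iff_ae_notMem.mp h0] with x hx
    by_contra hcon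
    apply hx
    simp only [mem_preimage, mem_compl_iff, mem_insert_iff, mem_singleton_iff]
    exact hcon
  refine cost_le_of_dual ρ _ S (measurable_twoMap p q t) hS hmap
    (fun x => min (‖x - p‖ ^ 2 - t) (‖x - q‖ ^ 2)) (fun y => if y = p then t else 0)
    (by fun_prop) (Measurable.ite (measurableSet_singleton p) measurable_const measurable_const)
    |t| (abs_nonneg t) ?_ ?_ ?_ ?_
  · intro x
    have h1 : -|t| ≤ ‖x - p‖ ^ 2 - t := by
      have := neg_abs_le (-t)
      rw [abs_neg] at this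
      nlinarith [sq_nonneg ‖x - p‖]
    have h2 : -|t| ≤ ‖x - q‖ ^ 2 := by
      nlinarith [sq_nonneg ‖x - q‖, abs_nonneg t]
    have := le_min h1 h2
    linarith
  · intro y
    show 0 ≤ (if y = p then t else 0) + |t|
    split_ifs
    · have := neg_abs_le t
      linarith
    · rw [zero_add]
      exact abs_nonneg t
  · filter_upwards [hae] with x hx
    show min (‖x - p‖ ^ 2 - t) (‖x - q‖ ^ 2) + (if S x = p then t else 0) ≤ ‖x - S x‖ ^ 2
    rcases hx with hx | hx
    · rw [if_pos hx, hx]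
      have := min_le_left (‖x - p‖ ^ 2 - t) (‖x - q‖ ^ 2)
      linarith
    · have hne : S x ≠ p := by rw [hx]; exact fun h => hpq h.symm
      rw [if_neg hne, hx]
      have := min_le_right (‖x - p‖ ^ 2 - t) (‖x - q‖ ^ 2)
      linarith
  · intro x
    show min (‖x - p‖ ^ 2 - t) (‖x - q‖ ^ 2) + (if twoMap p q t x = p then t else 0)
      = ‖x - twoMap p q t x‖ ^ 2
    unfold twoMap
    by_cases h : ‖x - p‖ ^ 2 - ‖x - q‖ ^ 2 ≤ t
    · rw [if_pos h, if_pos rfl, min_eq_left (by linarith)]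
      ring
    · rw [if_neg h, if_neg (fun h' => hpq h'.symm), min_eq_right (by linarith)]
      ring

lemma map_twoMap (ρ : Measure (EuclideanSpace ℝ (Fin d))) (p q : EuclideanSpace ℝ (Fin d))
    (t : ℝ) :
    ρ.map (twoMap p q t)
      = ρ {x | ‖x - p‖ ^ 2 - ‖x - q‖ ^ 2 ≤ t} • Measure.dirac p
        + ρ {x | ‖x - p‖ ^ 2 - ‖x - q‖ ^ 2 ≤ t}ᶜ • Measure.dirac q := by
  have hB := measurableSet_sub p q t
  have hT := measurable_twoMap p q t
  set B : Set (EuclideanSpace ℝ (Fin d)) := {x | ‖x - p‖ ^ 2 - ‖x - q‖ ^ 2 ≤ t} with hBdef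
  calc ρ.map (twoMap p q t)
      = (ρ.restrict B + ρ.restrict Bᶜ).map (twoMap p q t) := by
        rw [Measure.restrict_add_restrict_compl hB]
    _ = (ρ.restrict B).map (twoMap p q t) + (ρ.restrict Bᶜ).map (twoMap p q t) :=
        Measure.map_add _ _ hT
    _ = (ρ.restrict B).map (fun _ => p) + (ρ.restrict Bᶜ).map (fun _ => q) := by
        congr 1
        · apply Measure.map_congr
          filter_upwards [ae_restrict_mem hB] with x hx
          have hx' : ‖x - p‖ ^ 2 - ‖x - q‖ ^ 2 ≤ t := hx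
          simp [twoMap, hx']
        · apply Measure.map_congr
          filter_upwards [ae_restrict_mem hB.compl] with x hx
          have hx' : ¬ ‖x - p‖ ^ 2 - ‖x - q‖ ^ 2 ≤ t := hx
          simp [twoMap, hx']
    _ = ρ B • Measure.dirac p + ρ Bᶜ • Measure.dirac q := by
        simp [Measure.map_const]

end Vale.Agent.Lib.P074
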